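import Vale.Agent.P258.H78.Main

/-!
The slopes `2` and `-2` are not cosmetic for whole Fox congruence classes of knots and of patterns,
with every companion knot.
-/

namespace Vale.Agent.Results.P258.FoxClasses

open Vale.Agent.P258

/-- Fox congruence classes and purely cosmetic surgeries.  In (1), (2), `G` is any finite group and
`N` is a multiple of its exponent.
(1) If the surgeries of slopes `p₀ / q₀` and `p₁ / q₁` on a knot `P` have different numbers of
homomorphisms to `G`, then the surgeries of slopes `p / q` and `p' / q'` on every knot congruent to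
`P` modulo `N` have non-isomorphic fundamental groups, when these slopes are congruent to the given
ones modulo `N`.
(2) The same for the slopes `2` and `-2` on the `f`-twisted satellites of an arbitrary knot with a
pattern congruent to `P` modulo `N`, if `P` satisfies a condition on its colourings by `G`.
(3), (4) Two explicit patterns, with `N = 30` and with `N = 126`. -/
theorem result :
    (∀ (G : Type) [Group G] [Finite G] (N : ℕ), (∀ g : G, g ^ N = 1) →
      ∀ (P : Diagram) (k' : Fin P.n) (p₀ q₀ p₁ q₁ : ℤ),
      homCount G P k' p₀ q₀ ≠ homCount G P k' p₁ q₁ →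
      SeparatesKnotClass N P k' p₀ q₀ p₁ q₁) ∧
    (∀ (G : Type) [Group G] [Finite G] (N : ℕ), (∀ g : G, g ^ N = 1) →
      ∀ (P : Diagram) (k' e' : Fin P.n) (f : ℤ), Separates G P k' e' f →
      SeparatesClass N P k' e' f) ∧
    (∀ f : ℤ, f % 3 = 2 → SeparatesClass 30 pattern patternK patternE f) ∧
    (∀ f : ℤ, f % 7 = 0 → SeparatesClass 126 patternB patternBK patternBE f) := by
  refine ⟨fun G _ _ N hN P k' p₀ q₀ p₁ q₁ hne D C a b k hS hC p q p' q' h1 h2 h3 h4 =>
      transfer hN P k' p₀ q₀ p₁ q₁ hne D C a b k hS (fun c hc => (hC c hc).1)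
        (fun c hc => (hC c hc).2) p q p' q' h1 h2 h3 h4, ?_,
    fun f hf D J hJ C a b k e j s p q hS hC hs hp hq =>
      first D J hJ C a b k e j s f p q hS (fun c hc => (hC c hc).1) (fun c hc => (hC c hc).2)
        hs hf hp hq,
    fun f hf D J hJ C a b k e j s p q hS hC hs hp hq =>
      second D J hJ C a b k e j s f p q hS (fun c hc => (hC c hc).1) (fun c hc => (hC c hc).2)
        hs hf hp hq⟩
  intro G _ _ N hN P k' e' f hsep D J hJ C a b k e j s p q hS hC hs hp hq
  obtain ⟨hneg, ρ₀, h₀, hk, hne, he⟩ := hsep
  unfold lon at hk he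
  rw [Diagram.lift_longitude] at hk he
  refine general hN P k' e' ?_ ρ₀ (fun i => (P.lift_wirtinger _ i).1 (h₀ i))
    (by rw [← pow_two]; exact hk) (by rw [← pow_two]; exact hne) f he
    D J hJ C a b k e j s p q hS (fun c hc => (hC c hc).1) (fun c hc => (hC c hc).2) hs hp hq
  intro ρ h1 h2 h3
  rw [← pow_two]
  refine hneg ρ (fun i => (P.lift_wirtinger _ i).2 (h1 i)) ?_ ?_
  · unfold lon; rw [Diagram.lift_longitude]; exact h2
  · unfold lon; rw [Diagram.lift_longitude, ← h3, pow_two]

end Vale.Agent.Results.P258.FoxClasses
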